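import Vale.Agent.P287.R2.H248.Pert

/-!
P287: the set of parameters `t` for which `F - t ℓ ^ 3` vanishes on a line is open at every
parameter at which the surface is smooth along the line (implicit function theorem).
-/

namespace Vale.Agent.P287.R2.H114

open Module Submodule Filter Topology Vale.Agent.P287.R2.H248

/-- Two binary quadratic forms without a common zero have no linear syzygy. -/
lemma no_syzygy {p0 p1 p2 q0 q1 q2 a b c d : ℂ}
    (h : ∀ x y : ℂ, x ^ 2 * p0 + 2 * x * y * p1 + y ^ 2 * p2 = 0 →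
      x ^ 2 * q0 + 2 * x * y * q1 + y ^ 2 * q2 = 0 → x = 0 ∧ y = 0)
    (h1 : a * p0 + c * q0 = 0)
    (h2 : 2 * (a * p1 + c * q1) + (b * p0 + d * q0) = 0)
    (h3 : (a * p2 + c * q2) + 2 * (b * p1 + d * q1) = 0)
    (h4 : b * p2 + d * q2 = 0) : a = 0 ∧ b = 0 ∧ c = 0 ∧ d = 0 := by
  -- no proportionality
  have key : ∀ m n : ℂ, m * p0 + n * q0 = 0 → m * p1 + n * q1 = 0 → m * p2 + n * q2 = 0 →
      m = 0 ∧ n = 0 := by
    intro m n k0 k1 k2
    by_contra hcon
    by_cases hn : n = 0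
    · have hm : m ≠ 0 := fun hm => hcon ⟨hm, hn⟩
      subst hn
      obtain ⟨x, y, hxy, hz⟩ := quad_zero q0 q1 q2
      have e0 : p0 = 0 := by
        have : m * p0 = 0 := by linear_combination k0
        exact (mul_eq_zero.mp this).resolve_left hm
      have e1 : p1 = 0 := by
        have : m * p1 = 0 := by linear_combination k1
        exact (mul_eq_zero.mp this).resolve_left hm
      have e2 : p2 = 0 := by
        have : m * p2 = 0 := by linear_combination k2
        exact (mul_eq_zero.mp this).resolve_left hm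
      have := h x y (by rw [e0, e1, e2]; ring) (by linear_combination hz)
      rcases hxy with hx | hy
      · exact hx this.1
      · exact hy this.2
    · obtain ⟨x, y, hxy, hz⟩ := quad_zero p0 p1 p2
      have hq : n * (x ^ 2 * q0 + 2 * x * y * q1 + y ^ 2 * q2) = 0 := by
        linear_combination x ^ 2 * k0 + 2 * x * y * k1 + y ^ 2 * k2 - m * hz
      have := h x y hz ((mul_eq_zero.mp hq).resolve_left hn)
      rcases hxy with hx | hy
      · exact hx this.1
      · exact hy this.2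
  by_cases hD : a * d - b * c = 0
  · by_cases hac : a = 0 ∧ c = 0
    · obtain ⟨ha, hc⟩ := hac
      subst ha
      subst hc
      have := key b d (by linear_combination h2) (by linear_combination (1 / 2 : ℂ) * h3)
        h4
      exact ⟨rfl, this.1, rfl, this.2⟩
    · exfalso
      -- (b, d) is a multiple of (a, c)
      obtain ⟨r, hb, hd⟩ : ∃ r : ℂ, b = r * a ∧ d = r * c := by
        by_cases ha : a = 0
        · have hc : c ≠ 0 := fun hc => hac ⟨ha, hc⟩
          refine ⟨d / c, ?_, by field_simp⟩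
          subst ha
          have : b * c = 0 := by linear_combination -hD
          rw [(mul_eq_zero.mp this).resolve_right hc]
          ring
        · refine ⟨b / a, by field_simp, ?_⟩
          field_simp
          linear_combination hD
      subst hb
      subst hd
      have k1 : a * p1 + c * q1 = 0 := by
        linear_combination (1 / 2 : ℂ) * h2 - (r / 2) * h1
      have k2 : a * p2 + c * q2 = 0 := by
        linear_combination h3 - 2 * r * k1
      exact hac (key a c h1 k1 k2)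
  · exfalso
    set A1 := a * p1 + c * q1 with hA1
    set A2 := a * p2 + c * q2 with hA2
    obtain ⟨x, y, hxy, hL⟩ : ∃ x y : ℂ, (x ≠ 0 ∨ y ≠ 0) ∧ 2 * A1 * x + A2 * y = 0 := by
      by_cases hA : A1 = 0 ∧ A2 = 0
      · exact ⟨1, 0, Or.inl one_ne_zero, by rw [hA.1, hA.2]; ring⟩
      · refine ⟨A2, -2 * A1, ?_, by ring⟩
        by_contra hcon
        push Not at hcon
        apply hA
        refine ⟨?_, hcon.1⟩
        have := hcon.2
        have h5 : (-2 : ℂ) ≠ 0 := by norm_num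
        exact (mul_eq_zero.mp this).resolve_left h5
    -- A(x, y) = y L, B(x, y) = - x L
    have hAv : a * (x ^ 2 * p0 + 2 * x * y * p1 + y ^ 2 * p2) +
        c * (x ^ 2 * q0 + 2 * x * y * q1 + y ^ 2 * q2) = 0 := by
      linear_combination x ^ 2 * h1 + y * hL + 2 * x * y * (-hA1) + y ^ 2 * (-hA2)
    have hBv : b * (x ^ 2 * p0 + 2 * x * y * p1 + y ^ 2 * p2) +
        d * (x ^ 2 * q0 + 2 * x * y * q1 + y ^ 2 * q2) = 0 := by
      linear_combination x ^ 2 * h2 + x * y * h3 + y ^ 2 * h4 - x * hL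
    have hp : (a * d - b * c) * (x ^ 2 * p0 + 2 * x * y * p1 + y ^ 2 * p2) = 0 := by
      linear_combination d * hAv - c * hBv
    have hq : (a * d - b * c) * (x ^ 2 * q0 + 2 * x * y * q1 + y ^ 2 * q2) = 0 := by
      linear_combination a * hBv - b * hAv
    have := h x y ((mul_eq_zero.mp hp).resolve_left hD) ((mul_eq_zero.mp hq).resolve_left hD)
    rcases hxy with hx | hy
    · exact hx this.1
    · exact hy this.2

lemma hasDerivAt_cubic (c0 c1 c2 c3 : ℂ) :
    HasDerivAt (fun s : ℂ => c0 + c1 * s + c2 * s ^ 2 + c3 * s ^ 3) c1 0 := by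
  have h1 : HasDerivAt (fun s : ℂ => c0 + c1 * s) (c1 * 1) 0 :=
    ((hasDerivAt_id (0 : ℂ)).const_mul c1).const_add c0
  have h2 : HasDerivAt (fun s : ℂ => c2 * s ^ 2) (c2 * (((2 : ℕ) : ℂ) * 0 ^ (2 - 1))) 0 :=
    (hasDerivAt_pow 2 (0 : ℂ)).const_mul c2
  have h3 : HasDerivAt (fun s : ℂ => c3 * s ^ 3) (c3 * (((3 : ℕ) : ℂ) * 0 ^ (3 - 1))) 0 :=
    (hasDerivAt_pow 3 (0 : ℂ)).const_mul c3
  have h4 := (h1.add h2).add h3
  have e : c1 * 1 + c2 * (((2 : ℕ) : ℂ) * 0 ^ (2 - 1)) + c3 * (((3 : ℕ) : ℂ) * 0 ^ (3 - 1)) = c1 := by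
    norm_num
  rw [e] at h4
  exact h4

variable {V : Type*} [AddCommGroup V] [Module ℂ V]

/-- Directional derivative of the trilinear form. -/
lemma hasDerivAt_tri (S : Tri V) (x y z f g k : V) :
    HasDerivAt (fun s : ℂ => S.T (x + s • f) (y + s • g) (z + s • k))
      (S.T f y z + S.T x g z + S.T x y k) 0 := by
  have h := hasDerivAt_cubic (S.T x y z) (S.T f y z + S.T x g z + S.T x y k)
    (S.T f g z + S.T f y k + S.T x g k) (S.T f g k)
  refine h.congr_of_eventuallyEq (Filter.Eventually.of_forall fun s => ?_)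
  simp only [map_add, map_smul, LinearMap.add_apply, LinearMap.smul_apply, smul_eq_mul]
  ring

/-- The parameter space. -/
abbrev E := ℂ × ℂ × ℂ × ℂ × ℂ

/-- First moving vector. -/
def mv1 (e e3 e4 : V) (p : E) : V := e + (p.2.1 • e3 + p.2.2.2.1 • e4)

/-- Second moving vector. -/
def mv2 (e e3 e4 : V) (p : E) : V := e + (p.2.2.1 • e3 + p.2.2.2.2 • e4)

/-- The equations. -/
def ev111 (S : Tri V) (l : V →ₗ[ℂ] ℂ) (e1 e3 e4 : V) (p : E) : ℂ :=
  (S.pert l p.1).T (mv1 e1 e3 e4 p) (mv1 e1 e3 e4 p) (mv1 e1 e3 e4 p)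

/-- The equations. -/
def ev112 (S : Tri V) (l : V →ₗ[ℂ] ℂ) (e1 e2 e3 e4 : V) (p : E) : ℂ :=
  (S.pert l p.1).T (mv1 e1 e3 e4 p) (mv1 e1 e3 e4 p) (mv2 e2 e3 e4 p)

/-- The equations. -/
def ev122 (S : Tri V) (l : V →ₗ[ℂ] ℂ) (e1 e2 e3 e4 : V) (p : E) : ℂ :=
  (S.pert l p.1).T (mv1 e1 e3 e4 p) (mv2 e2 e3 e4 p) (mv2 e2 e3 e4 p)

/-- The equations. -/
def ev222 (S : Tri V) (l : V →ₗ[ℂ] ℂ) (e2 e3 e4 : V) (p : E) : ℂ :=
  (S.pert l p.1).T (mv2 e2 e3 e4 p) (mv2 e2 e3 e4 p) (mv2 e2 e3 e4 p)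

lemma contDiff_ev111 (S : Tri V) (l : V →ₗ[ℂ] ℂ) (e1 e3 e4 : V) :
    ContDiff ℂ 1 (ev111 S l e1 e3 e4) := by
  unfold ev111 mv1
  simp only [Tri.pert_T, map_add, map_smul, LinearMap.add_apply, LinearMap.smul_apply, smul_eq_mul]
  fun_prop

lemma contDiff_ev112 (S : Tri V) (l : V →ₗ[ℂ] ℂ) (e1 e2 e3 e4 : V) :
    ContDiff ℂ 1 (ev112 S l e1 e2 e3 e4) := by
  unfold ev112 mv1 mv2
  simp only [Tri.pert_T, map_add, map_smul, LinearMap.add_apply, LinearMap.smul_apply, smul_eq_mul]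
  fun_prop

lemma contDiff_ev122 (S : Tri V) (l : V →ₗ[ℂ] ℂ) (e1 e2 e3 e4 : V) :
    ContDiff ℂ 1 (ev122 S l e1 e2 e3 e4) := by
  unfold ev122 mv1 mv2
  simp only [Tri.pert_T, map_add, map_smul, LinearMap.add_apply, LinearMap.smul_apply, smul_eq_mul]
  fun_prop

lemma contDiff_ev222 (S : Tri V) (l : V →ₗ[ℂ] ℂ) (e2 e3 e4 : V) :
    ContDiff ℂ 1 (ev222 S l e2 e3 e4) := by
  unfold ev222 mv2
  simp only [Tri.pert_T, map_add, map_smul, LinearMap.add_apply, LinearMap.smul_apply, smul_eq_mul]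
  fun_prop

/-- The base point. -/
def base (t0 : ℂ) : E := (t0, 0, 0, 0, 0)

lemma dir_curve (t0 : ℂ) (v : E) : HasDerivAt (fun s : ℂ => base t0 + s • v) v 0 := by
  have h := ((hasDerivAt_id (0 : ℂ)).smul_const v).const_add (base t0)
  rw [one_smul] at h
  exact h

/-- The derivative in a direction is the derivative along the line. -/
lemma fderiv_dir {f : E → ℂ} (hf : ContDiff ℂ 1 f) (t0 : ℂ) (v : E) :
    HasDerivAt (fun s : ℂ => f (base t0 + s • v)) (fderiv ℂ f (base t0) v) 0 := by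
  have h1 : HasFDerivAt f (fderiv ℂ f (base t0)) (base t0) :=
    (hf.differentiable (by norm_num)).differentiableAt.hasFDerivAt
  have h2 := dir_curve t0 v
  have h3 : HasFDerivAt f (fderiv ℂ f (base t0)) (base t0 + (0 : ℂ) • v) := by
    rw [zero_smul, add_zero]
    exact h1
  exact h3.comp_hasDerivAt (0 : ℂ) h2

lemma mv1_dir (e e3 e4 : V) (t0 s : ℂ) (v : E) : mv1 e e3 e4 (base t0 + s • v) =
    e + s • (v.2.1 • e3 + v.2.2.2.1 • e4) := by
  unfold mv1 base
  simp only [Prod.snd_add, Prod.fst_add, Prod.smul_snd, Prod.smul_fst, zero_add, smul_eq_mul,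
    smul_add, mul_smul]

lemma mv2_dir (e e3 e4 : V) (t0 s : ℂ) (v : E) : mv2 e e3 e4 (base t0 + s • v) =
    e + s • (v.2.2.1 • e3 + v.2.2.2.2 • e4) := by
  unfold mv2 base
  simp only [Prod.snd_add, Prod.fst_add, Prod.smul_snd, Prod.smul_fst, zero_add, smul_eq_mul,
    smul_add, mul_smul]

lemma base_dir_fst (t0 s : ℂ) (v : E) (hv : v.1 = 0) : (base t0 + s • v).1 = t0 := by
  unfold base
  simp only [Prod.fst_add, Prod.smul_fst, hv, smul_zero, add_zero]

section main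

variable (S : Tri V) (l : V →ₗ[ℂ] ℂ) (t0 : ℂ) (e1 e2 e3 e4 : V)

lemma fderiv_ev111 (v : E) (hv : v.1 = 0) : fderiv ℂ (ev111 S l e1 e3 e4) (base t0) v =
    3 * (v.2.1 * (S.pert l t0).T e1 e1 e3 + v.2.2.2.1 * (S.pert l t0).T e1 e1 e4) := by
  have h1 := fderiv_dir (contDiff_ev111 S l e1 e3 e4) t0 v
  have h2 := hasDerivAt_tri (S.pert l t0) e1 e1 e1 (v.2.1 • e3 + v.2.2.2.1 • e4)
    (v.2.1 • e3 + v.2.2.2.1 • e4) (v.2.1 • e3 + v.2.2.2.1 • e4)
  have h3 := h1.unique (h2.congr_of_eventuallyEq (Filter.Eventually.of_forall fun s => by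
    unfold ev111
    simp only [mv1_dir, base_dir_fst t0 s v hv]))
  rw [h3, ← (S.pert l t0).cyc (v.2.1 • e3 + v.2.2.2.1 • e4) e1 e1,
    (S.pert l t0).s12 e1 (v.2.1 • e3 + v.2.2.2.1 • e4) e1,
    (S.pert l t0).cyc (v.2.1 • e3 + v.2.2.2.1 • e4) e1 e1]
  simp only [map_add, map_smul, smul_eq_mul]
  ring

lemma fderiv_ev112 (v : E) (hv : v.1 = 0) : fderiv ℂ (ev112 S l e1 e2 e3 e4) (base t0) v =
    2 * (v.2.1 * (S.pert l t0).T e1 e2 e3 + v.2.2.2.1 * (S.pert l t0).T e1 e2 e4) +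
      (v.2.2.1 * (S.pert l t0).T e1 e1 e3 + v.2.2.2.2 * (S.pert l t0).T e1 e1 e4) := by
  have h1 := fderiv_dir (contDiff_ev112 S l e1 e2 e3 e4) t0 v
  have h2 := hasDerivAt_tri (S.pert l t0) e1 e1 e2 (v.2.1 • e3 + v.2.2.2.1 • e4)
    (v.2.1 • e3 + v.2.2.2.1 • e4) (v.2.2.1 • e3 + v.2.2.2.2 • e4)
  have h3 := h1.unique (h2.congr_of_eventuallyEq (Filter.Eventually.of_forall fun s => by
    unfold ev112
    simp only [mv1_dir, mv2_dir, base_dir_fst t0 s v hv]))
  rw [h3, (S.pert l t0).cyc (v.2.1 • e3 + v.2.2.2.1 • e4) e1 e2,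
    (S.pert l t0).s23 e1 (v.2.1 • e3 + v.2.2.2.1 • e4) e2]
  simp only [map_add, map_smul, smul_eq_mul]
  ring

lemma fderiv_ev122 (v : E) (hv : v.1 = 0) : fderiv ℂ (ev122 S l e1 e2 e3 e4) (base t0) v =
    (v.2.1 * (S.pert l t0).T e2 e2 e3 + v.2.2.2.1 * (S.pert l t0).T e2 e2 e4) +
      2 * (v.2.2.1 * (S.pert l t0).T e1 e2 e3 + v.2.2.2.2 * (S.pert l t0).T e1 e2 e4) := by
  have h1 := fderiv_dir (contDiff_ev122 S l e1 e2 e3 e4) t0 v
  have h2 := hasDerivAt_tri (S.pert l t0) e1 e2 e2 (v.2.1 • e3 + v.2.2.2.1 • e4)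
    (v.2.2.1 • e3 + v.2.2.2.2 • e4) (v.2.2.1 • e3 + v.2.2.2.2 • e4)
  have h3 := h1.unique (h2.congr_of_eventuallyEq (Filter.Eventually.of_forall fun s => by
    unfold ev122
    simp only [mv1_dir, mv2_dir, base_dir_fst t0 s v hv]))
  rw [h3, (S.pert l t0).cyc (v.2.1 • e3 + v.2.2.2.1 • e4) e2 e2,
    (S.pert l t0).s23 e1 (v.2.2.1 • e3 + v.2.2.2.2 • e4) e2]
  simp only [map_add, map_smul, smul_eq_mul]
  ring

lemma fderiv_ev222 (v : E) (hv : v.1 = 0) : fderiv ℂ (ev222 S l e2 e3 e4) (base t0) v =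
    3 * (v.2.2.1 * (S.pert l t0).T e2 e2 e3 + v.2.2.2.2 * (S.pert l t0).T e2 e2 e4) := by
  have h1 := fderiv_dir (contDiff_ev222 S l e2 e3 e4) t0 v
  have h2 := hasDerivAt_tri (S.pert l t0) e2 e2 e2 (v.2.2.1 • e3 + v.2.2.2.2 • e4)
    (v.2.2.1 • e3 + v.2.2.2.2 • e4) (v.2.2.1 • e3 + v.2.2.2.2 • e4)
  have h3 := h1.unique (h2.congr_of_eventuallyEq (Filter.Eventually.of_forall fun s => by
    unfold ev222
    simp only [mv2_dir, base_dir_fst t0 s v hv]))
  rw [h3, (S.pert l t0).cyc (v.2.2.1 • e3 + v.2.2.2.2 • e4) e2 e2,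
    (S.pert l t0).s23 e2 (v.2.2.1 • e3 + v.2.2.2.2 • e4) e2]
  simp only [map_add, map_smul, smul_eq_mul]
  ring

/-- The map of the inverse function theorem. -/
def Psi (p : E) : E := (p.1, ev111 S l e1 e3 e4 p, ev112 S l e1 e2 e3 e4 p,
  ev122 S l e1 e2 e3 e4 p, ev222 S l e2 e3 e4 p)

/-- Its derivative. -/
noncomputable def dPsi : E →L[ℂ] E :=
  (ContinuousLinearMap.fst ℂ ℂ (ℂ × ℂ × ℂ × ℂ)).prod
    ((fderiv ℂ (ev111 S l e1 e3 e4) (base t0)).prod
      ((fderiv ℂ (ev112 S l e1 e2 e3 e4) (base t0)).prod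
        ((fderiv ℂ (ev122 S l e1 e2 e3 e4) (base t0)).prod
          (fderiv ℂ (ev222 S l e2 e3 e4) (base t0)))))

lemma hasStrictFDerivAt_Psi :
    HasStrictFDerivAt (Psi S l e1 e2 e3 e4) (dPsi S l t0 e1 e2 e3 e4) (base t0) := by
  have a1 := (contDiff_ev111 S l e1 e3 e4).contDiffAt (x := base t0) |>.hasStrictFDerivAt
    (by norm_num)
  have a2 := (contDiff_ev112 S l e1 e2 e3 e4).contDiffAt (x := base t0) |>.hasStrictFDerivAt
    (by norm_num)
  have a3 := (contDiff_ev122 S l e1 e2 e3 e4).contDiffAt (x := base t0) |>.hasStrictFDerivAt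
    (by norm_num)
  have a4 := (contDiff_ev222 S l e2 e3 e4).contDiffAt (x := base t0) |>.hasStrictFDerivAt
    (by norm_num)
  exact hasStrictFDerivAt_fst.prodMk (a1.prodMk (a2.prodMk (a3.prodMk a4)))

end main

variable {S : Tri V} {l : V →ₗ[ℂ] ℂ} {t0 : ℂ} {e1 e2 e3 e4 : V}

lemma dPsi_surj
    (h : ∀ x y : ℂ, (S.pert l t0).T (x • e1 + y • e2) (x • e1 + y • e2) e3 = 0 →
      (S.pert l t0).T (x • e1 + y • e2) (x • e1 + y • e2) e4 = 0 → x = 0 ∧ y = 0) :
    (dPsi S l t0 e1 e2 e3 e4).range = ⊤ := by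
  have hinj : Function.Injective (dPsi S l t0 e1 e2 e3 e4 : E →ₗ[ℂ] E) := by
    rw [← LinearMap.ker_eq_bot, LinearMap.ker_eq_bot']
    intro v hv
    have hv' : dPsi S l t0 e1 e2 e3 e4 v = 0 := hv
    unfold dPsi at hv'
    simp only [ContinuousLinearMap.prod_apply, Prod.mk_eq_zero] at hv'
    obtain ⟨k0, k1, k2, k3, k4⟩ := hv'
    have k0' : v.1 = 0 := k0
    rw [fderiv_ev111 S l t0 e1 e3 e4 v k0'] at k1
    rw [fderiv_ev112 S l t0 e1 e2 e3 e4 v k0'] at k2
    rw [fderiv_ev122 S l t0 e1 e2 e3 e4 v k0'] at k3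
    rw [fderiv_ev222 S l t0 e2 e3 e4 v k0'] at k4
    have key := no_syzygy (p0 := (S.pert l t0).T e1 e1 e3) (p1 := (S.pert l t0).T e1 e2 e3)
      (p2 := (S.pert l t0).T e2 e2 e3) (q0 := (S.pert l t0).T e1 e1 e4)
      (q1 := (S.pert l t0).T e1 e2 e4) (q2 := (S.pert l t0).T e2 e2 e4)
      (a := v.2.1) (b := v.2.2.1) (c := v.2.2.2.1) (d := v.2.2.2.2)
      (fun x y h1 h2 => h x y (by rw [(S.pert l t0).sq_add]; exact h1)
        (by rw [(S.pert l t0).sq_add]; exact h2))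
      (by linear_combination (1 / 3 : ℂ) * k1) (by linear_combination k2)
      (by linear_combination k3) (by linear_combination (1 / 3 : ℂ) * k4)
    obtain ⟨g1, g2, g3, g4⟩ := key
    exact Prod.ext k0' (Prod.ext g1 (Prod.ext g2 (Prod.ext g3 g4)))
  have hs := LinearMap.injective_iff_surjective.mp hinj
  exact LinearMap.range_eq_top.mpr hs

lemma eventually_solution (hb : Psi S l e1 e2 e3 e4 (base t0) = base t0)
    (h : ∀ x y : ℂ, (S.pert l t0).T (x • e1 + y • e2) (x • e1 + y • e2) e3 = 0 →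
      (S.pert l t0).T (x • e1 + y • e2) (x • e1 + y • e2) e4 = 0 → x = 0 ∧ y = 0) :
    ∀ᶠ t in 𝓝 t0, ∃ p : E, Psi S l e1 e2 e3 e4 p = base t := by
  have h1 := (hasStrictFDerivAt_Psi S l t0 e1 e2 e3 e4).map_nhds_eq_of_surj (dPsi_surj h)
  rw [hb] at h1
  have h2 : Set.range (Psi S l e1 e2 e3 e4) ∈ 𝓝 (base t0) := by
    rw [← h1]
    exact Filter.mem_map.mpr (Filter.univ_mem' fun x => ⟨x, rfl⟩)
  have h3 : Continuous base := by
    unfold base
    fun_prop
  exact h3.continuousAt.eventually h2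

/-- The parameters for which the surface contains a line form an open set at every parameter
at which it is smooth along a line. -/
theorem open_line {S : Tri (Fin 4 → ℂ)} (l : (Fin 4 → ℂ) →ₗ[ℂ] ℂ) (t0 : ℂ)
    (U : Submodule ℂ (Fin 4 → ℂ)) (hU : finrank ℂ U = 2) (hI : (S.pert l t0).Iso U)
    (hnd : ∀ u ∈ U, (∀ w, (S.pert l t0).T u u w = 0) → u = 0) :
    ∀ᶠ t in nhds t0, ∃ U' : Submodule ℂ (Fin 4 → ℂ), finrank ℂ U' = 2 ∧ (S.pert l t).Iso U' := by
  have hV : finrank ℂ (Fin 4 → ℂ) = 4 := by simp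
  -- a basis
  obtain ⟨e1, he1, h10⟩ : ∃ e1 ∈ U, e1 ≠ 0 := by
    by_contra hcon
    push Not at hcon
    have : U = ⊥ := (Submodule.eq_bot_iff U).mpr hcon
    rw [this, finrank_bot] at hU
    omega
  obtain ⟨e2, he2, h21, hspan⟩ := exists_pair hU he1 h10
  obtain ⟨e3, he3⟩ := exists_not_mem (U := U) (by rw [hU, hV]; norm_num)
  have h3 := finrank_sup_single he3
  obtain ⟨e4, he4⟩ := exists_not_mem (U := U ⊔ span ℂ {e3}) (by rw [h3, hU, hV]; norm_num)
  have ind2 : ∀ x y : ℂ, x • e1 + y • e2 = 0 → x = 0 ∧ y = 0 := by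
    intro x y hxy
    have hy : y = 0 := by
      by_contra hy
      apply h21
      rw [mem_span_singleton]
      refine ⟨-(x / y), ?_⟩
      have : e2 = (1 / y) • (x • e1 + y • e2) - (x / y) • e1 := by
        rw [smul_add, smul_smul, smul_smul, one_div, inv_mul_cancel₀ hy, one_smul]
        rw [div_eq_inv_mul]
        abel
      rw [this, hxy, smul_zero, zero_sub, neg_smul]
    subst hy
    rw [zero_smul, add_zero] at hxy
    exact ⟨(smul_eq_zero.mp hxy).resolve_right h10, rfl⟩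
  have hnd' : ∀ x y : ℂ, (S.pert l t0).T (x • e1 + y • e2) (x • e1 + y • e2) e3 = 0 →
      (S.pert l t0).T (x • e1 + y • e2) (x • e1 + y • e2) e4 = 0 → x = 0 ∧ y = 0 := by
    intro x y k3 k4
    apply ind2
    have hu : x • e1 + y • e2 ∈ U := U.add_mem (U.smul_mem x he1) (U.smul_mem y he2)
    apply hnd _ hu
    intro w
    obtain ⟨u, hu2, a, b, rfl⟩ := decomp hV hU he3 he4 w
    rw [map_add, map_add, map_smul, map_smul, hI.two hu hu2, k3, k4]
    simp
  have hb : Psi S l e1 e2 e3 e4 (base t0) = base t0 := by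
    unfold Psi ev111 ev112 ev122 ev222 mv1 mv2 base
    simp only [zero_smul, add_zero]
    rw [hI.two he1 he1, hI.two he1 he2, hI.two he2 he2, (S.pert l t0).cyc e1 e2 e2,
      hI.two he2 he1]
  filter_upwards [eventually_solution hb hnd'] with t ht
  obtain ⟨p, hp⟩ := ht
  have hp1 : p.1 = t := congrArg (fun z : E => z.1) hp
  have q1 : ev111 S l e1 e3 e4 p = 0 := congrArg (fun z : E => z.2.1) hp
  have q2 : ev112 S l e1 e2 e3 e4 p = 0 := congrArg (fun z : E => z.2.2.1) hp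
  have q3 : ev122 S l e1 e2 e3 e4 p = 0 := congrArg (fun z : E => z.2.2.2.1) hp
  have q4 : ev222 S l e2 e3 e4 p = 0 := congrArg (fun z : E => z.2.2.2.2) hp
  unfold ev111 at q1
  unfold ev112 at q2
  unfold ev122 at q3
  unfold ev222 at q4
  rw [hp1] at q1 q2 q3 q4
  refine ⟨span ℂ {mv1 e1 e3 e4 p, mv2 e2 e3 e4 p}, ?_, Tri.iso_span_pair q1 q2 q3 q4⟩
  have hind : LinearIndependent ℂ ![mv1 e1 e3 e4 p, mv2 e2 e3 e4 p] := by
    rw [LinearIndependent.pair_iff]
    intro x y hxy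
    unfold mv1 mv2 at hxy
    have hz : (x • e1 + y • e2) + (x * p.2.1 + y * p.2.2.1) • e3 +
        (x * p.2.2.2.1 + y * p.2.2.2.2) • e4 = 0 := by
      rw [← hxy]
      module
    have hu : x • e1 + y • e2 ∈ U := U.add_mem (U.smul_mem x he1) (U.smul_mem y he2)
    have z4 : x * p.2.2.2.1 + y * p.2.2.2.2 = 0 := by
      by_contra hne
      apply he4
      rw [← Submodule.smul_mem_iff _ hne]
      have : (x * p.2.2.2.1 + y * p.2.2.2.2) • e4 =
          -((x • e1 + y • e2) + (x * p.2.1 + y * p.2.2.1) • e3) := by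
        rw [eq_neg_iff_add_eq_zero, add_comm]
        exact hz
      rw [this]
      apply neg_mem
      apply add_mem
      · exact Submodule.mem_sup_left hu
      · exact Submodule.mem_sup_right (Submodule.smul_mem _ _ (mem_span_singleton_self e3))
    rw [z4, zero_smul, add_zero] at hz
    have z3 : x * p.2.1 + y * p.2.2.1 = 0 := by
      by_contra hne
      apply he3
      rw [← Submodule.smul_mem_iff _ hne]
      have : (x * p.2.1 + y * p.2.2.1) • e3 = -(x • e1 + y • e2) := by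
        rw [eq_neg_iff_add_eq_zero, add_comm]
        exact hz
      rw [this]
      exact neg_mem hu
    rw [z3, zero_smul, add_zero] at hz
    exact ind2 x y hz
  have hc := finrank_span_eq_card hind
  rw [Matrix.range_cons, Matrix.range_cons, Matrix.range_empty, Set.union_empty,
    Set.singleton_union] at hc
  rw [hc]
  simp

end Vale.Agent.P287.R2.H114
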